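import Vale.Agent.P176.Conv

/-!
P176 (finitistic dimension conjecture): projective dimension and linearity defect.

`A` is a basic finite-dimensional algebra over a field with `r` simple modules and
`rad(A)^(L+1) = 0` (every finite-dimensional algebra is Morita equivalent to a basic one). For a
finitely generated module `M` let `P` be its minimal projective resolution and `lin P` the
associated graded complex of `P` for the radical filtration; the linearity defect `ld(M)` is the
last place where `lin P` has homology. Then `ld(M) ≤ pd(M) ≤ ld(M) + r L` as soon as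
`pd(M) < ∞`, so that `findim A < ∞` if and only if the linearity defect is bounded on the
modules of finite projective dimension.
-/

namespace Vale.Agent.Results.P176.LinearityDefect

open Vale.Agent.P176

theorem result (k : Type) [Field k] (A : Type) [Ring A] [Algebra k A] [FiniteDimensional k A]
    {r : ℕ} (e : Fin r → A) (he : Basic A e) (L : ℕ) (hL : rpow k A (L + 1) = ⊥) :
    (∀ (M : Type) [AddCommGroup M] [Module A M] [Module.Finite A M],
      Nonempty (MinRes e M) ∧ ∀ (R : MinRes e M) (l : ℕ),
        (pdim A M ≤ (l : WithBot ℕ∞) → R.toCx.LinDefLE k l) ∧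
        (R.toCx.LinDefLE k l → pdim A M ≠ ⊤ → pdim A M ≤ ((l + r * L : ℕ) : WithBot ℕ∞))) ∧
    (FindimFinite A ↔ LinDefBounded k e) := by
  refine ⟨fun M _ _ _ => ⟨?_, fun R l => ⟨fun hl => ?_, fun hl hfin => ?_⟩⟩, ?_, ?_⟩
  · obtain ⟨R⟩ := exists_minRes k he M
    exact ⟨R.toS⟩
  · exact (linDef_iff k R l).2 (linDef_of_pd he hL R.toM hl)
  · exact pd_le he hL R.toM hfin ((linDef_iff k R l).1 hl)
  · rintro ⟨b, hb⟩
    refine ⟨b, fun M _ _ _ hfin R => ?_⟩
    exact (linDef_iff k R b).2 (linDef_of_pd he hL R.toM (hb M hfin))
  · rintro ⟨b, hb⟩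
    refine ⟨b + r * L, fun M _ _ _ hfin => ?_⟩
    obtain ⟨R⟩ := exists_minRes k he M
    exact pd_le he hL R.toS.toM hfin ((linDef_iff k R.toS b).1 (hb M hfin R.toS))

end Vale.Agent.Results.P176.LinearityDefect
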